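import Vale.Agent.P207.N4.Dim
import Vale.Agent.P207.N3.H469.Tay
import Vale.Agent.P207.N4.H545.TensR

/-!
# `N` is smooth if it is given by polynomials up to high order (helper469, line N3 of P207)
-/

set_option maxSynthPendingDepth 3

open Set Filter Topology Metric
open scoped ContDiff

noncomputable section

namespace Vale.Agent.P207.N4.H469

open Vale.Agent.P207.N3 Vale.Agent.P207.N3.H469 Vale.Agent.P207.N4.H469 Vale.Agent.P207.N4

variable [Dim]

open Vale.Agent.P207.N3 Vale.Agent.P207.N3.H545 Vale.Agent.P207.N4.H545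

variable {Γ X B : Type} [Group Γ] [MetricSpace X] [ProperSpace X] [MulAction Γ X]
  [IsIsometricSMul Γ X] [TopologicalSpace B] [CompactSpace B] [T2Space B] [MulAction Γ B]
  [ContinuousConstSMul Γ B]

variable {L : Leaf Γ X B}

/-- `m` unit steps below `x` -/
def yb (L : Leaf Γ X B) (x : X) (m : ℕ) : X := L.φ (-((m : ℝ) * ts L)) x

theorem yb_zero (x : X) : yb L x 0 = x := by
  unfold yb
  rw [Nat.cast_zero, zero_mul, neg_zero, L.φ_zero]

theorem yb_step (x : X) (m : ℕ) : yb L x m = L.φ (ts L) (yb L x (m + 1)) := by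
  unfold yb
  rw [← L.φ_add]
  congr 1
  push_cast
  ring

theorem yb_total (x : X) (m : ℕ) : L.φ ((m : ℝ) * ts L) (yb L x m) = x := by
  unfold yb
  rw [← L.φ_add, add_neg_cancel, L.φ_zero]

/-- the steps -/
def tb (L : Leaf Γ X B) (x : X) (m : ℕ) : E2 → E2 :=
  L.τ (L.φ (ts L) (yb L x (m + 1))) (yb L x (m + 1))

/-- the composition of the first `m` steps -/
def sg (L : Leaf Γ X B) (x : X) : ℕ → E2 → E2
  | 0 => id
  | m + 1 => L.τ (L.φ (((m + 1 : ℕ) : ℝ) * ts L) (yb L x (m + 1))) (yb L x (m + 1))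

theorem t1_le_mul {L : Leaf Γ X B} (m : ℕ) : L.t1 ≤ ((m + 1 : ℕ) : ℝ) * ts L := by
  have h1 := t1_le_ts L
  have h2 := ts_pos L
  push_cast
  nlinarith [(Nat.cast_nonneg m : (0 : ℝ) ≤ m)]

theorem sub23 : ball (0 : E2) 2 ⊆ ball 0 3 := ball_subset_ball (by norm_num)

theorem tb_mem (x : X) (m : ℕ) {u : E2} (hu : u ∈ ball (0 : E2) 2) : tb L x m u ∈ ball (0 : E2) 1 :=
  tau_step_mem L (t1_le_ts L) _ (ball_subset_closedBall (sub23 hu))

theorem sg_mem (x : X) (m : ℕ) {u : E2} (hu : u ∈ ball (0 : E2) 2) :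
    sg L x m u ∈ ball (0 : E2) 2 := by
  cases m with
  | zero => exact hu
  | succ m =>
    exact ball_subset_ball (by norm_num : (1 : ℝ) ≤ 2)
      (tau_step_mem L (t1_le_mul m) _ (ball_subset_closedBall (sub23 hu)))

theorem e_sg (x : X) (m : ℕ) {u : E2} (hu : u ∈ ball (0 : E2) 2) :
    L.e (yb L x m) (sg L x m u) = L.e x u := by
  cases m with
  | zero => rw [yb_zero]; rfl
  | succ m =>
    have h1 := e_tau_step L (t1_le_mul m) (yb L x (m + 1)) (u := u) (ball_subset_closedBall (sub23 hu))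
    rw [yb_total] at h1
    show L.e (yb L x (m + 1)) (L.τ (L.φ (((m + 1 : ℕ) : ℝ) * ts L) (yb L x (m + 1)))
      (yb L x (m + 1)) u) = L.e x u
    rw [yb_total]
    exact h1

theorem sg_succ (x : X) (m : ℕ) {u : E2} (hu : u ∈ ball (0 : E2) 2) :
    sg L x (m + 1) u = tb L x m (sg L x m u) := by
  have h1 := sg_mem (L := L) x m hu
  refine tau_eq_of L (ball_subset_closedBall (ball_subset_ball (by norm_num : (1 : ℝ) ≤ 3)
    (tb_mem x m h1))) ?_
  rw [yb_total]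
  have h2 := e_tau_step L (t1_le_ts L) (yb L x (m + 1)) (u := sg L x m u)
    (ball_subset_closedBall (sub23 h1))
  rw [← e_sg x m hu]
  show L.e (yb L x (m + 1)) (L.τ (L.φ (ts L) (yb L x (m + 1))) (yb L x (m + 1)) (sg L x m u)) = _
  rw [h2, ← yb_step]

theorem ep_φ (L : Leaf Γ X B) (t : ℝ) (x : X) : L.ep (L.φ t x) = L.ep x := by
  rw [L.ep_flip, L.flip_φ, L.em_φ, ← L.ep_flip]

theorem tau_step_zero {t : ℝ} (y : X) : L.τ (L.φ t y) y 0 = 0 := by
  refine tau_eq_of L (mem_closedBall_self (by norm_num)) ?_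
  rw [L.e_zero, L.e_zero, ep_φ]

theorem norm_iter_id (k : ℕ) (u : E2) (hk : 1 ≤ k) :
    ‖iteratedFDeriv ℝ k (id : E2 → E2) u‖ ≤ 1 := by
  obtain ⟨n, rfl⟩ : ∃ n, k = n + 1 := ⟨k - 1, by omega⟩
  rw [← norm_iteratedFDeriv_fderiv]
  have h1 : fderiv ℝ (id : E2 → E2) = fun _ => ContinuousLinearMap.id ℝ E2 := by
    funext v; exact fderiv_id
  rw [h1]
  rcases Nat.eq_zero_or_pos n with rfl | hn
  · rw [norm_iteratedFDeriv_zero]
    exact ContinuousLinearMap.norm_id_le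
  · rw [iteratedFDeriv_const_of_ne (by omega)]
    simp

theorem sg_bound (x : X) (m k : ℕ) (hk : 1 ≤ k) {u : E2} (hu : u ∈ ball (0 : E2) 2) :
    ‖iteratedFDeriv ℝ k (sg L x m) u‖ ≤ cc L k * Real.exp (-L.χ * ts L) ^ m := by
  cases m with
  | zero =>
    rw [pow_zero, mul_one]
    exact (norm_iter_id k u hk).trans (one_le_cc L k)
  | succ m =>
    have h1 := contract_cc L hk (t1_le_mul m) (yb L x (m + 1)) (u := u) (sub23 hu)
    refine h1.trans (le_of_eq ?_)
    rw [← Real.exp_nat_mul]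
    congr 2
    push_cast
    ring

theorem sg_smooth (x : X) (m : ℕ) : ContDiffOn ℝ ∞ (sg L x m) (ball 0 2) := by
  cases m with
  | zero => exact contDiffOn_id
  | succ m => exact (tau_step_smooth L (t1_le_mul m) _).mono sub23

theorem sg_zero (x : X) (m : ℕ) : sg L x m 0 = 0 := by
  cases m with
  | zero => rfl
  | succ m => exact tau_step_zero _

/-- the matrices -/
def Ab (L : Leaf Γ X B) (x : X) (m : ℕ) (u : E2) : (E2 →L[ℝ] E2) →L[ℝ] (E2 →L[ℝ] E2) :=
  conjT (Sx L (yb L x (m + 1)) (ts L) u)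

/-- the errors -/
def Rb (T : Tens L) (x : X) (m : ℕ) (u : E2) : E2 →L[ℝ] E2 :=
  -conjT (Sx L (yb L x (m + 1)) (ts L) u) (T.R (L.φ (ts L) (yb L x (m + 1))) (yb L x (m + 1)) u)

theorem contDiffOn_of_CkB {W : Type} [NormedAddCommGroup W] [NormedSpace ℝ W] {f : E2 → W}
    {c : ℕ → ℝ} (h : ∀ k, CkB k 2 (c k) f) : ContDiffOn ℝ ∞ f (ball 0 2) :=
  contDiffOn_infty.2 fun k => (h k).1

theorem exists_chain (L : Leaf Γ X B) : ∃ a : ℝ, 1 ≤ a ∧ ∃ KA : ℕ → ℝ, ∀ x : X,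
    Chain KA a (Real.exp (-L.χ * ts L)) (Ab L x) (sg L x) := by
  have hts : ts L ∈ Icc L.t1 (ts L) := ⟨t1_le_ts L, le_rfl⟩
  choose c hc0 hc using fun k => conjT_CkB L k (ts L)
  refine ⟨max 1 (c 0), le_max_left _ _, fun k => cc L k + c k, fun x => ?_⟩
  have h0 : ∀ k, 0 ≤ cc L k := fun k => zero_le_one.trans (one_le_cc L k)
  refine ⟨sg_smooth x, fun m u hu => sg_mem x m hu, sg_zero x, fun m k hk u hu => ?_, fun m => ?_,
    fun m u hu => ?_, fun m k u hu => ?_⟩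
  · refine (sg_bound x m k hk hu).trans ?_
    gcongr
    linarith [hc0 k]
  · exact contDiffOn_of_CkB fun k => hc k (yb L x (m + 1)) (ts L) hts
  · have h1 := (hc 0 (yb L x (m + 1)) (ts L) hts).2 0 le_rfl u hu
    rw [norm_iteratedFDeriv_zero] at h1
    exact h1.trans (le_max_right _ _)
  · have h1 := (hc k (yb L x (m + 1)) (ts L) hts).2 k le_rfl u hu
    exact h1.trans (by linarith [h0 k])

theorem exists_Rb (T : Tens L) : ∃ KR : ℕ → ℝ, (∀ k, 0 ≤ KR k) ∧ ∀ (x : X) (m k : ℕ),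
    CkB k 2 (KR k) (Rb T x m) := by
  have hts : ts L ∈ Icc L.t1 (ts L) := ⟨t1_le_ts L, le_rfl⟩
  choose c hc0 hc using fun k => conjT_CkB L k (ts L)
  choose r hr0 hr using fun k => R_CkB T k (ts L)
  refine ⟨fun k => ‖ContinuousLinearMap.id ℝ ((E2 →L[ℝ] E2) →L[ℝ] (E2 →L[ℝ] E2))‖ *
    (2 ^ k * (c k * r k)), fun k => by have := hc0 k; have := hr0 k; positivity, fun x m k => ?_⟩
  have h1 := hc k (yb L x (m + 1)) (ts L) hts
  have h2 := hr k (yb L x (m + 1)) (ts L) hts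
  exact CkB_neg (CkB_bilin (ContinuousLinearMap.id ℝ ((E2 →L[ℝ] E2) →L[ℝ] (E2 →L[ℝ] E2))) h1 h2
    (hc0 k) (hr0 k))

/-- **`N` is smooth** if it is given by polynomials of degree `< j` up to `O(|u|^j)` at the centres
of the charts, `j ≥ j₀`. -/
theorem smooth_of_campa (T : Tens L) : ∃ j₀ : ℕ, ∀ j ≥ j₀, ∀ M : ℝ, (∀ x, Campa j M (T.N x)) →
    ∀ k, ∃ C : ℝ, ∀ x, CkB k 2 C (T.N x) := by
  obtain ⟨a, ha, KA, hA⟩ := exists_chain L
  obtain ⟨KR, hKR0, hR⟩ := exists_Rb T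
  set θ : ℝ := Real.exp (-L.χ * ts L) with hθ
  have hθ0 : 0 < θ := Real.exp_pos _
  have hθ1 : θ < 1 := by
    rw [hθ, Real.exp_lt_one_iff]
    have := mul_pos L.χ_pos (ts_pos L)
    linarith
  obtain ⟨j₀, hj₀⟩ : ∃ j₀ : ℕ, ∀ j ≥ j₀, a * θ ^ j < 1 := by
    have h1 : Tendsto (fun k : ℕ => a * θ ^ k) atTop (𝓝 (a * 0)) :=
      (tendsto_pow_atTop_nhds_zero_of_lt_one hθ0.le hθ1).const_mul _
    rw [mul_zero] at h1
    exact eventually_atTop.1 (h1.eventually (gt_mem_nhds one_pos))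
  refine ⟨j₀, fun j hj M hM k => ?_⟩
  set K : ℕ → ℝ := fun k => |KA k| + KR k + cc L k with hK
  have hcc0 : ∀ k, 0 ≤ cc L k := fun k => zero_le_one.trans (one_le_cc L k)
  have hA' : ∀ x, Chain K a θ (Ab L x) (sg L x) := fun x => by
    have h := hA x
    have hle : ∀ k, KA k ≤ K k := fun k => by
      show KA k ≤ |KA k| + KR k + cc L k
      linarith [le_abs_self (KA k), hKR0 k, hcc0 k]
    exact ⟨h.σ_smooth, h.σ_maps, h.σ_zero, fun m k hk u hu => (h.σ_bound m k hk u hu).trans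
      (mul_le_mul_of_nonneg_right (hle k) (by positivity)), h.A_smooth, h.A_norm,
      fun m k u hu => (h.A_bound m k u hu).trans (hle k)⟩
  obtain ⟨C, hC⟩ := exists_smooth E2 (E2 →L[ℝ] E2) K ha hθ0 hθ1 (hj₀ j hj) M k
  choose p hp hpN using hM
  refine ⟨sK C k, fun x => ?_⟩
  have h1 := hC (Ab L x) (sg L x) (hA' x) (tb L x) (Rb T x) (fun m => T.N (yb L x m))
    (fun m => p (yb L x m)) (fun m => (tau_step_smooth L (t1_le_ts L) _).mono sub23)
    (fun m u hu => ball_subset_ball (by norm_num) (tb_mem x m hu))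
    (fun m => tau_step_zero _)
    (fun m i hi u hu => (norm_iteratedFDeriv_tau_step_le L hi (t1_le_ts L) _ (sub23 hu)).trans (by
      show cc L i ≤ |KA i| + KR i + cc L i
      linarith [abs_nonneg (KA i), hKR0 i]))
    (fun m => contDiffOn_of_CkB fun k => hR x m k)
    (fun m i u hu => ((hR x m i).2 i le_rfl u hu).trans (by
      show KR i ≤ |KA i| + KR i + cc L i
      linarith [abs_nonneg (KA i), hcc0 i]))
    (fun u _ => rfl) (fun m u hu => sg_succ x m hu)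
    (fun m u hu => by
      show T.N (yb L x m) u = Ab L x m u (T.N (yb L x (m + 1)) (tb L x m u)) + Rb T x m u
      rw [yb_step x m]
      exact N_step T (t1_le_ts L) (yb L x (m + 1)) (sub23 hu))
    (fun m i => hp (yb L x m) i) (fun m u hu => hpN (yb L x m) u hu)
  have h2 : T.N (yb L x 0) = T.N x := by rw [yb_zero]
  simp only [h2] at h1
  exact ⟨h1.1, fun l hl u hu => (h1.2 l hl u hu).trans ((le_abs_self _).trans (le_sK C hl))⟩

end Vale.Agent.P207.N4.H469
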