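import Vale.Agent.P207.N4.Dim
import Vale.Agent.P207.N4.H469.Chn
import Vale.Agent.P207.N4.H545.Dir
import Vale.Agent.P207.N4.Top.Defs

/-!
# From one open piece to all leaves (helper469, line N3 of P207)
-/

set_option maxSynthPendingDepth 3

open Set Filter Topology Metric
open scoped ContDiff

noncomputable section

namespace Vale.Agent.P207.N4.H469

open Vale.Agent.P207.N3 Vale.Agent.P207.N3.H469 Vale.Agent.P207.N4.H469 Vale.Agent.P207.N4

variable [Dim]

open Vale.Agent.P207.N3 Vale.Agent.P207.N3.H545 Vale.Agent.P207.N4.H545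

variable {Γ X B : Type} [Group Γ] [MetricSpace X] [ProperSpace X] [MulAction Γ X]
  [IsIsometricSMul Γ X] [TopologicalSpace B] [CompactSpace B] [T2Space B] [MulAction Γ B]
  [ContinuousConstSMul Γ B]

variable {L : Leaf Γ X B}

/-- the inverse derivative of a transition map -/
def Sv (L : Leaf Γ X B) (x y : X) (u : E2) : E2 →L[ℝ] E2 :=
  Ring.inverse (fderiv ℝ (L.τ x y) u)

/-- the tensor at `x` from the tensor at `y` -/
theorem N_back (T : Tens L) {x y : X} (h : L.em x = L.em y) {u : E2} (hu : u ∈ L.dm x y) :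
    T.N x u = conjT (Sv L x y u) (T.N y (L.τ x y u)) + -conjT (Sv L x y u) (T.R x y u) := by
  have h1 := T.R_eq x y h u hu
  have hunit := H545.isUnit_fderiv_tau L h hu
  have h2 : Sv L x y u * fderiv ℝ (L.τ x y) u = 1 := Ring.inverse_mul_cancel _ hunit
  set D := fderiv ℝ (L.τ x y) u with hD
  set S := Sv L x y u with hS
  have h3 : star D * star S = 1 := by rw [← star_mul, h2, star_one]
  rw [h1]
  have e1 : D ∘L T.N x u ∘L ContinuousLinearMap.adjoint D = D * T.N x u * star D := by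
    rw [ContinuousLinearMap.star_eq_adjoint]
    rfl
  rw [e1, conjT_apply, conjT_apply, ← sub_eq_add_neg, ← sub_mul, ← mul_sub, add_sub_cancel_right]
  calc T.N x u = 1 * T.N x u * 1 := by rw [one_mul, mul_one]
    _ = (S * D) * T.N x u * (star D * star S) := by rw [h2, h3]
    _ = S * (D * T.N x u * star D) * star S := by simp only [mul_assoc]

theorem isOpen_image_of (x : X) {O : Set E2} (hO : IsOpen O) (hO3 : O ⊆ ball (0 : E2) 3) :
    IsOpen (L.e x '' O) := by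
  have h1 : IsCompact (closedBall (0 : E2) 3 \ O) := (isCompact_closedBall _ _).diff hO
  have h2 : IsCompact (L.e x '' (closedBall (0 : E2) 3 \ O)) :=
    h1.image_of_continuousOn ((e_contOn L x).mono sdiff_subset)
  have h3 : L.e x '' O = L.e x '' ball (0 : E2) 3 \ L.e x '' (closedBall (0 : E2) 3 \ O) := by
    ext b
    constructor
    · rintro ⟨u, hu, rfl⟩
      refine ⟨⟨u, hO3 hu, rfl⟩, ?_⟩
      rintro ⟨v, hv, he⟩
      have := L.e_inj x hv.1 (ball_subset_closedBall (hO3 hu)) he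
      rw [this] at hv
      exact hv.2 hu
    · rintro ⟨⟨u, hu, rfl⟩, hn⟩
      refine ⟨u, ?_, rfl⟩
      by_contra hcon
      exact hn ⟨u, ⟨ball_subset_closedBall hu, hcon⟩, rfl⟩
  rw [h3]
  exact (isOpen_image L x).sdiff h2.isClosed

/-- frames of the leaf of `y`, with end point in a compact set, at levels in an interval -/
def Fr (L : Leaf Γ X B) (y : X) (D : Set B) (I : Set ℝ) : Set X :=
  {z | L.em z = L.em y ∧ L.ep z ∈ D ∧ L.lv z ∈ I}

theorem ep_cont (L : Leaf Γ X B) : Continuous L.ep := by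
  have : L.ep = fun x => L.em (L.flip x) := funext L.ep_flip
  rw [this]
  exact L.em_cont.comp L.flip_cont

theorem isCompact_Fr (y : X) {D : Set B} (hD : IsCompact D) (hDy : L.em y ∉ D) (a b : ℝ) :
    IsCompact (Fr L y D (Icc a b)) := by
  have hK : IsCompact (({L.em y} : Set B) ×ˢ D) := isCompact_singleton.prod hD
  have h1 := L.hopf_proper _ hK (fun p hp h => by
    obtain ⟨h2, h3⟩ := hp
    rw [mem_singleton_iff] at h2
    rw [h2] at h
    rw [← h] at h3
    exact hDy h3) (max |a| |b|)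
  have hcl : IsClosed (Fr L y D (Icc a b)) :=
    ((isClosed_singleton.preimage L.em_cont).inter
      ((hD.isClosed.preimage (ep_cont L)).inter (isClosed_Icc.preimage L.lv_cont)))
  refine h1.of_isClosed_subset hcl fun z hz => ⟨⟨?_, hz.2.1⟩, ?_⟩
  · exact hz.1
  · exact abs_le_max_abs_abs hz.2.2.1 hz.2.2.2

/-- the small discs of the frames of a compact set -/
theorem exists_small (y : X) {D : Set B} (hD : IsCompact D) (hDy : L.em y ∉ D) (a b : ℝ)
    {O : Set B} (hO : IsOpen O) (hDO : D ⊆ O) :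
    ∃ δ > 0, δ ≤ 3 ∧ ∀ z ∈ Fr L y D (Icc a b), ∀ u : E2, ‖u‖ ≤ δ → L.e z u ∈ O := by
  have hc : ContinuousOn (fun p : X × E2 => L.e p.1 p.2) (univ ×ˢ ball (0 : E2) 3) :=
    L.e_cont.mono (prod_mono_right ball_subset_closedBall)
  have hopen : IsOpen ((univ ×ˢ ball (0 : E2) 3) ∩ (fun p : X × E2 => L.e p.1 p.2) ⁻¹' O) :=
    hc.isOpen_inter_preimage (isOpen_univ.prod isOpen_ball) hO
  have hsub : Fr L y D (Icc a b) ×ˢ ({0} : Set E2) ⊆
      (univ ×ˢ ball (0 : E2) 3) ∩ (fun p : X × E2 => L.e p.1 p.2) ⁻¹' O := by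
    rintro ⟨z, u⟩ ⟨hz, hu⟩
    rw [mem_singleton_iff] at hu
    simp only at hu
    subst hu
    refine ⟨⟨mem_univ _, mem_ball_self (by norm_num)⟩, ?_⟩
    show L.e z 0 ∈ O
    rw [L.e_zero]
    exact hDO hz.2.1
  obtain ⟨U, W, hU, hW, hFU, h0W, hUW⟩ := generalized_tube_lemma (isCompact_Fr y hD hDy a b)
    isCompact_singleton hopen hsub
  obtain ⟨ε, hε, hεW⟩ := Metric.isOpen_iff.1 hW 0 (h0W (mem_singleton 0))
  refine ⟨min (ε / 2) 3, by positivity, min_le_right _ _, fun z hz u hu => ?_⟩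
  have hu' : u ∈ W := hεW (by
    rw [mem_ball_zero_iff]
    have := hu.trans (min_le_left _ _)
    linarith)
  exact (hUW (mk_mem_prod (hFU hz) hu')).2

/-- high discs over a compact set are small -/
theorem exists_high (y : X) {D : Set B} (hD : IsCompact D) (hDy : L.em y ∉ D)
    {O : Set B} (hO : IsOpen O) (hDO : D ⊆ O) :
    ∃ s₀ : ℝ, 0 ≤ s₀ ∧ ∀ z, L.em z = L.em y → L.ep z ∈ D → L.lv y + s₀ ≤ L.lv z →
      L.e z '' ball (0 : E2) 3 ⊆ O := by
  obtain ⟨δ, hδ, hδ3, hsm⟩ := exists_small y hD hDy (L.lv y) (L.lv y) hO hDO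
  have hlim : Tendsto (fun t : ℝ => cc L 1 * Real.exp (-L.χ * t) * 3) atTop (𝓝 (cc L 1 * 0 * 3)) := by
    refine (Tendsto.const_mul _ ?_).mul_const _
    have h1 : Tendsto (fun t : ℝ => L.χ * t) atTop atTop := tendsto_id.const_mul_atTop L.χ_pos
    have h2 := Real.tendsto_exp_neg_atTop_nhds_zero.comp h1
    refine h2.congr fun t => ?_
    simp only [Function.comp_apply, neg_mul]
  rw [mul_zero, zero_mul] at hlim
  obtain ⟨s₁, hs₁⟩ := eventually_atTop.1 (hlim.eventually (ge_mem_nhds hδ))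
  refine ⟨max (max s₁ L.t1) 0, le_max_right _ _, fun z hz hzD hlz => ?_⟩
  set s : ℝ := L.lv z - L.lv y with hs
  have hs1 : s₁ ≤ s := by
    have := (le_max_left s₁ L.t1).trans (le_max_left _ (0 : ℝ))
    linarith
  have hst : L.t1 ≤ s := by
    have := (le_max_right s₁ L.t1).trans (le_max_left _ (0 : ℝ))
    linarith
  set w : X := L.φ (-s) z with hw
  have hzw : z = L.φ s w := by rw [hw, ← L.φ_add, add_neg_cancel, L.φ_zero]
  have hwF : w ∈ Fr L y D (Icc (L.lv y) (L.lv y)) := by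
    refine ⟨by rw [hw, L.em_φ]; exact hz, by rw [hw, ep_φ]; exact hzD, ?_⟩
    rw [hw, L.lv_φ, hs]
    constructor <;> linarith
  rintro _ ⟨u, hu, rfl⟩
  rw [hzw, ← e_tau_step L hst w (ball_subset_closedBall hu)]
  refine hsm w hwF _ ?_
  -- the norm of the transition map
  have h1 : ∀ v ∈ ball (0 : E2) 3, ‖L.τ (L.φ s w) w v‖ ≤ cc L 1 * Real.exp (-L.χ * s) * ‖v‖ := by
    intro v hv
    have h2 := (convex_ball (0 : E2) 3).norm_image_sub_le_of_norm_fderiv_le (𝕜 := ℝ)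
      (f := L.τ (L.φ s w) w) (C := cc L 1 * Real.exp (-L.χ * s))
      (fun x hx => ((tau_step_smooth L hst w).contDiffAt (isOpen_ball.mem_nhds hx)).differentiableAt
        (by simp))
      (fun x hx => by
        have := contract_cc L le_rfl hst w hx
        rwa [norm_iteratedFDeriv_one] at this) (mem_ball_self (by norm_num)) hv
    rw [tau_step_zero, sub_zero, sub_zero] at h2
    exact h2
  have h2 : ‖u‖ ≤ 3 := (mem_ball_zero_iff.1 hu).le
  have h3 : 0 ≤ cc L 1 := zero_le_one.trans (one_le_cc L 1)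
  calc ‖L.τ (L.φ s w) w u‖ ≤ cc L 1 * Real.exp (-L.χ * s) * ‖u‖ := h1 u hu
    _ ≤ cc L 1 * Real.exp (-L.χ * s) * 3 := by gcongr
    _ ≤ δ := hs₁ s hs1

/-- the transition maps from the frames of a compact set to `y`: all bounds -/
theorem exists_trans_bound (T : Tens L) (y : X) {F : Set X} (hF : IsCompact F)
    (hem : ∀ z ∈ F, L.em z = L.em y) (hdm : ∀ z ∈ F, closedBall (0 : E2) 2 ⊆ L.dm z y) (k : ℕ) :
    ∃ c : ℝ, 0 ≤ c ∧ ∀ z ∈ F, ∀ u ∈ closedBall (0 : E2) 2,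
      (∀ i ≤ k, ‖iteratedFDeriv ℝ i (L.τ z y) u‖ ≤ c) ∧ ‖Sv L z y u‖ ≤ c ∧
      (∀ i ≤ k, ‖iteratedFDeriv ℝ i (T.R z y) u‖ ≤ c) := by
  have hcomp : IsCompact (F ×ˢ closedBall (0 : E2) 2) := hF.prod (isCompact_closedBall _ _)
  have hmap : Continuous fun p : X × E2 => (((p.1, y), p.2) : (X × X) × E2) := by fun_prop
  have hmaps : MapsTo (fun p : X × E2 => (((p.1, y), p.2) : (X × X) × E2))
      (F ×ˢ closedBall (0 : E2) 2) {p | L.em p.1.1 = L.em p.1.2 ∧ p.2 ∈ L.dm p.1.1 p.1.2} := by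
    rintro ⟨z, u⟩ ⟨hz, hu⟩
    exact ⟨hem z hz, hdm z hz hu⟩
  have h1 : ∀ i : ℕ, ∃ C, ∀ p ∈ F ×ˢ closedBall (0 : E2) 2,
      ‖iteratedFDeriv ℝ i (L.τ p.1 y) p.2‖ ≤ C := fun i =>
    hcomp.exists_bound_of_continuousOn ((L.tau_cont i).comp hmap.continuousOn hmaps)
  have h2 : ∀ i : ℕ, ∃ C, ∀ p ∈ F ×ˢ closedBall (0 : E2) 2,
      ‖iteratedFDeriv ℝ i (T.R p.1 y) p.2‖ ≤ C := fun i =>
    hcomp.exists_bound_of_continuousOn ((T.R_cont i).comp hmap.continuousOn hmaps)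
  have h3 : ∃ C, ∀ p ∈ F ×ˢ closedBall (0 : E2) 2, ‖Sv L p.1 y p.2‖ ≤ C := by
    refine hcomp.exists_bound_of_continuousOn (f := fun p : X × E2 => Sv L p.1 y p.2) ?_
    have hc1 : ContinuousOn (fun p : X × E2 => fderiv ℝ (L.τ p.1 y) p.2)
        (F ×ˢ closedBall (0 : E2) 2) :=
      (continuousOn_fderiv_tau L).comp hmap.continuousOn hmaps
    rintro ⟨z, u⟩ hp
    obtain ⟨v, hv⟩ := isUnit_fderiv_tau L (hem z hp.1) (hdm z hp.1 hp.2)
    have h4 : ContinuousAt Ring.inverse (fderiv ℝ (L.τ z y) u) := by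
      rw [← hv]; exact NormedRing.inverse_continuousAt v
    exact ContinuousAt.comp_continuousWithinAt (g := Ring.inverse)
      (f := fun p : X × E2 => fderiv ℝ (L.τ p.1 y) p.2) h4 (hc1 (z, u) hp)
  choose c₁ hc₁ using h1
  choose c₂ hc₂ using h2
  obtain ⟨c₃, hc₃⟩ := h3
  have hs1 : ∀ i ≤ k, c₁ i ≤ ∑ i ∈ Finset.range (k + 1), |c₁ i| := fun i hi =>
    (le_abs_self _).trans (Finset.single_le_sum (f := fun i => |c₁ i|) (fun _ _ => abs_nonneg _)
      (Finset.mem_range.2 (by omega)))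
  have hs2 : ∀ i ≤ k, c₂ i ≤ ∑ i ∈ Finset.range (k + 1), |c₂ i| := fun i hi =>
    (le_abs_self _).trans (Finset.single_le_sum (f := fun i => |c₂ i|) (fun _ _ => abs_nonneg _)
      (Finset.mem_range.2 (by omega)))
  have hn1 : 0 ≤ ∑ i ∈ Finset.range (k + 1), |c₁ i| := Finset.sum_nonneg fun _ _ => abs_nonneg _
  have hn2 : 0 ≤ ∑ i ∈ Finset.range (k + 1), |c₂ i| := Finset.sum_nonneg fun _ _ => abs_nonneg _
  refine ⟨(∑ i ∈ Finset.range (k + 1), |c₁ i|) + (∑ i ∈ Finset.range (k + 1), |c₂ i|) + |c₃|,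
    by positivity, fun z hz u hu => ⟨fun i hi => ?_, ?_, fun i hi => ?_⟩⟩
  · exact (hc₁ i (z, u) ⟨hz, hu⟩).trans (by linarith [hs1 i hi, abs_nonneg c₃])
  · exact (hc₃ (z, u) ⟨hz, hu⟩).trans (by linarith [le_abs_self c₃])
  · exact (hc₂ i (z, u) ⟨hz, hu⟩).trans (by linarith [hs2 i hi, abs_nonneg c₃])

end Vale.Agent.P207.N4.H469
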