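import Vale.Agent.P207.N4.Dim
import Vale.Agent.P207.N4.H469.Pre
import Vale.Agent.P207.N4.H545.Lim

/-!
# The dichotomy (3.5) (helper469, line N3 of P207)

`smooth_of_piece`: if `N` is `C^{k₀}` on one open piece of one leaf then it is `C^∞` on all leaves,
with uniform bounds. `dichotomy : Dichotomy T`.
-/

set_option maxSynthPendingDepth 3

open Set Filter Topology Metric
open scoped ContDiff

noncomputable section

namespace Vale.Agent.P207.N4.H469

open Vale.Agent.P207.N3 Vale.Agent.P207.N3.H469 Vale.Agent.P207.N4.H469 Vale.Agent.P207.N4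

variable [Dim]

open Vale.Agent.P207.N3 Vale.Agent.P207.N3.H545 Vale.Agent.P207.N4.H545

variable {Γ X B : Type} [Group Γ] [MetricSpace X] [ProperSpace X] [MulAction Γ X]
  [IsIsometricSMul Γ X] [TopologicalSpace B] [CompactSpace B] [T2Space B] [MulAction Γ B]
  [ContinuousConstSMul Γ B]

variable {L : Leaf Γ X B}

theorem tau_mem_of {z y : X} {O : Set E2} (hO3 : O ⊆ ball (0 : E2) 3)
    (hsub : L.e z '' ball (0 : E2) 3 ⊆ L.e y '' O) {u : E2} (hu : u ∈ ball (0 : E2) 3) :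
    u ∈ L.dm z y ∧ L.τ z y u ∈ O := by
  obtain ⟨v, hv, he⟩ := hsub ⟨u, hu, rfl⟩
  refine ⟨⟨hu, ⟨v, hO3 hv, he⟩⟩, ?_⟩
  rw [tau_eq_of L (ball_subset_closedBall (hO3 hv)) he]
  exact hv

/-- `C^k` bounds for a compact family of frames whose discs lie in one smooth piece -/
theorem exists_fam (T : Tens L) (y : X) {F : Set X} (hF : IsCompact F)
    (hem : ∀ z ∈ F, L.em z = L.em y) {O : Set E2} (hO : IsOpen O) (hO3 : O ⊆ ball (0 : E2) 3)
    (hsub : ∀ z ∈ F, L.e z '' ball (0 : E2) 3 ⊆ L.e y '' O) {k : ℕ} {M : ℕ → ℝ}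
    (hN : H828.CkB k M O (T.N y)) : ∃ C : ℝ, 0 ≤ C ∧ ∀ z ∈ F, CkB k 2 C (T.N z) := by
  have h23 : closedBall (0 : E2) 2 ⊆ ball 0 3 := closedBall_subset_ball (by norm_num)
  obtain ⟨c, hc0, hc⟩ := exists_trans_bound T y hF hem
    (fun z hz u hu => (tau_mem_of hO3 (hsub z hz) (h23 hu)).1) (k + 1)
  obtain ⟨cS, hcS0, hcS⟩ := exists_inverse_bound.{0} k c c hc0 hc0
  set cN : ℝ := sK (compC k M (fun _ => c)) k with hcN
  have hcN0 : 0 ≤ cN := sK_nonneg _ _
  set cT : ℝ := ‖ContinuousLinearMap.mulLeftRight ℝ (E2 →L[ℝ] E2)‖ * (2 ^ k * (cS * cS)) with hcT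
  have hcT0 : 0 ≤ cT := by positivity
  set cI : ℝ := ‖ContinuousLinearMap.id ℝ ((E2 →L[ℝ] E2) →L[ℝ] (E2 →L[ℝ] E2))‖ with hcI
  have hcI0 : 0 ≤ cI := norm_nonneg _
  refine ⟨cI * (2 ^ k * (cT * cN)) + cI * (2 ^ k * (cT * c)), by positivity, fun z hz => ?_⟩
  have hz23 : ∀ u ∈ ball (0 : E2) 2, u ∈ L.dm z y ∧ L.τ z y u ∈ O := fun u hu =>
    tau_mem_of hO3 (hsub z hz) (sub23 hu)
  have hτs : ContDiffOn ℝ ∞ (L.τ z y) (ball (0 : E2) 2) := fun u hu =>
    (tau_contDiffAt L (hem z hz) (hz23 u hu).1).contDiffWithinAt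
  have hτ : H828.CkB k (fun _ => c) (ball (0 : E2) 2) (L.τ z y) :=
    ⟨hτs.of_le (by exact_mod_cast le_top), fun i hi u hu =>
      (hc z hz u (ball_subset_closedBall hu)).1 i (by omega)⟩
  have hS : CkB k 2 cS (Sv L z y) := by
    have hg : ∀ u ∈ ball (0 : E2) 2, ContDiffAt ℝ k (fderiv ℝ (L.τ z y)) u := fun u hu =>
      (tau_contDiffAt L (hem z hz) (hz23 u hu).1).fderiv_right (m := k)
        (by exact_mod_cast le_top)
    have hunit : ∀ u ∈ ball (0 : E2) 2, IsUnit (fderiv ℝ (L.τ z y) u) := fun u hu =>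
      isUnit_fderiv_tau L (hem z hz) (hz23 u hu).1
    refine ⟨fun u hu => ?_, fun i hi u hu => ?_⟩
    · obtain ⟨v, hv⟩ := hunit u hu
      have h1 : ContDiffAt ℝ k Ring.inverse (fderiv ℝ (L.τ z y) u) := by
        rw [← hv]; exact contDiffAt_ringInverse ℝ v
      exact (h1.comp u (hg u hu)).contDiffWithinAt
    · refine hcS (E2 →L[ℝ] E2) E2 (fderiv ℝ (L.τ z y)) u (hg u hu) (hunit u hu)
        (hc z hz u (ball_subset_closedBall hu)).2.1 (fun j _ hj => ?_) i hi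
      rw [norm_iteratedFDeriv_fderiv]
      exact (hc z hz u (ball_subset_closedBall hu)).1 (j + 1) (by omega)
  have hT : CkB k 2 cT (fun u => conjT (Sv L z y u)) :=
    CkB_bilin (ContinuousLinearMap.mulLeftRight ℝ (E2 →L[ℝ] E2)) hS (CkB_star hS) hcS0 hcS0
  have hNτ : CkB k 2 cN (fun u => T.N y (L.τ z y u)) := by
    have h1 := CkB.comp isOpen_ball hO hN hτ (fun u hu => (hz23 u hu).2)
    exact ⟨h1.1, fun i hi u hu => (h1.2 i hi u hu).trans ((le_abs_self _).trans (le_sK _ hi))⟩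
  have hR : CkB k 2 c (T.R z y) := by
    refine ⟨?_, fun i hi u hu => (hc z hz u (ball_subset_closedBall hu)).2.2 i (by omega)⟩
    exact ((T.R_smooth z y (hem z hz)).mono fun u hu => (hz23 u hu).1).of_le
      (by exact_mod_cast le_top)
  have h1 := CkB_bilin (ContinuousLinearMap.id ℝ ((E2 →L[ℝ] E2) →L[ℝ] (E2 →L[ℝ] E2))) hT hNτ
    hcT0 hcN0
  have h2 := CkB_bilin (ContinuousLinearMap.id ℝ ((E2 →L[ℝ] E2) →L[ℝ] (E2 →L[ℝ] E2))) hT hR
    hcT0 hc0
  refine CkB_congr (CkB_add h1 (CkB_neg h2)) fun u hu => ?_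
  exact N_back T (hem z hz) (hz23 u hu).1

/-- all high frames over a smooth piece are uniformly `C^k` -/
theorem exists_high_CkB (T : Tens L) : ∃ k₀ : ℕ, ∀ k ≥ k₀, ∀ (y : X) (O : Set E2), IsOpen O →
    O ⊆ ball 0 3 → O.Nonempty → ContDiffOn ℝ k (T.N y) O →
    ∃ (V : Set E2) (S M : ℝ), IsOpen V ∧ V ⊆ ball 0 3 ∧ V.Nonempty ∧
      ∀ z, L.em z = L.em y → L.ep z ∈ L.e y '' V → S ≤ L.lv z → CkB k 2 M (T.N z) := by
  obtain ⟨k₀, hk₀⟩ := N_R T (le_refl (0 : ℝ))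
  refine ⟨k₀, fun k hk y O hO hO3 hne hN => ?_⟩
  obtain ⟨C, hC1, hC⟩ := hk₀ k hk
  obtain ⟨v₀, hv₀⟩ := hne
  obtain ⟨r, hr, hrO⟩ := Metric.isOpen_iff.1 hO v₀ hv₀
  -- bounds on a smaller ball
  have hcb : closedBall v₀ (r / 2) ⊆ O := (closedBall_subset_ball (by linarith)).trans hrO
  have hb : ∀ i : ℕ, ∃ C, i ≤ k → ∀ u ∈ closedBall v₀ (r / 2), ‖iteratedFDeriv ℝ i (T.N y) u‖ ≤ C := by
    intro i
    by_cases hi : i ≤ k
    · have h1 : ContinuousOn (iteratedFDeriv ℝ i (T.N y)) O := by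
        have h2 := hN.continuousOn_iteratedFDerivWithin (m := i) (by exact_mod_cast hi)
          hO.uniqueDiffOn
        exact h2.congr fun u hu => (iteratedFDerivWithin_of_isOpen i hO hu).symm
      obtain ⟨C, hC⟩ := (isCompact_closedBall v₀ (r / 2)).exists_bound_of_continuousOn (h1.mono hcb)
      exact ⟨C, fun _ => hC⟩
    · exact ⟨0, fun h => absurd h hi⟩
  choose M hM using hb
  have hNk : H828.CkB k M (ball v₀ (r / 2)) (T.N y) :=
    ⟨hN.mono (ball_subset_closedBall.trans hcb), fun i hi u hu =>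
      hM i hi u (ball_subset_closedBall hu)⟩
  have hO' : ball v₀ (r / 2) ⊆ ball (0 : E2) 3 := (ball_subset_closedBall.trans hcb).trans hO3
  -- the compact set of end points
  have hsub4 : closedBall v₀ (r / 4) ⊆ ball v₀ (r / 2) := closedBall_subset_ball (by linarith)
  have hD : IsCompact (L.e y '' closedBall v₀ (r / 4)) :=
    (isCompact_closedBall _ _).image_of_continuousOn
      ((e_contOn L y).mono ((hsub4.trans hO').trans ball_subset_closedBall))
  have hDy : L.em y ∉ L.e y '' closedBall v₀ (r / 4) := by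
    rintro ⟨u, hu, he⟩
    exact L.e_ne y u (ball_subset_closedBall (hO' (hsub4 hu))) he
  obtain ⟨s₀, hs₀, hhigh⟩ := exists_high y hD hDy (isOpen_image_of y isOpen_ball hO')
    (image_mono hsub4)
  set F : Set X := Fr L y (L.e y '' closedBall v₀ (r / 4))
    (Icc (L.lv y + s₀) (L.lv y + s₀ + ts L)) with hFdef
  have hF : IsCompact F := isCompact_Fr y hD hDy _ _
  obtain ⟨M₁, hM₁0, hM₁⟩ := exists_fam T y hF (fun z hz => hz.1) isOpen_ball hO'
    (fun z hz => hhigh z hz.1 hz.2.1 hz.2.2.1) hNk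
  refine ⟨ball v₀ (r / 4), L.lv y + s₀, C * (max 1 M₁ * Real.exp (0 * (0 : ℕ))), isOpen_ball,
    (ball_subset_closedBall.trans hsub4).trans hO', ⟨v₀, mem_ball_self (by linarith)⟩,
    fun z hz hzV hzS => ?_⟩
  -- go down by unit steps into `F`
  have hts := ts_pos L
  set n : ℕ := ⌊(L.lv z - (L.lv y + s₀)) / ts L⌋₊ with hn
  have hq : 0 ≤ (L.lv z - (L.lv y + s₀)) / ts L := div_nonneg (by linarith) hts.le
  have hn1 : (n : ℝ) * ts L ≤ L.lv z - (L.lv y + s₀) := by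
    have := Nat.floor_le hq
    rwa [le_div_iff₀ hts] at this
  have hn2 : L.lv z - (L.lv y + s₀) < ((n : ℝ) + 1) * ts L := by
    have := Nat.lt_floor_add_one ((L.lv z - (L.lv y + s₀)) / ts L)
    rwa [div_lt_iff₀ hts] at this
  set w : X := L.φ (-((n : ℝ) * ts L)) z with hw
  have hwF : w ∈ F := by
    refine ⟨by rw [hw, L.em_φ]; exact hz, ?_, ?_⟩
    · rw [hw, ep_φ]
      exact image_mono ball_subset_closedBall hzV
    · rw [hw, L.lv_φ]
      constructor <;> nlinarith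
  have h1 := hC w n (max 1 M₁) (le_max_left _ _) ?_ 0 (Nat.zero_le n)
  · have h2 : stp L w n 0 = z := by
      unfold stp
      rw [hw, ← L.φ_add]
      have : ((n : ℝ) - ((0 : ℕ) : ℝ)) * ts L + -((n : ℝ) * ts L) = 0 := by push_cast; ring
      rw [this, L.φ_zero]
    rw [h2] at h1
    exact h1
  · have h3 := hM₁ w hwF
    refine h3.mono le_rfl le_rfl ?_
    rw [zero_mul, Real.exp_zero, mul_one]
    exact le_max_right _ _

/-- **From one open piece to all leaves.** -/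
theorem smooth_of_piece (T : Tens L) : ∃ k₀ : ℕ, (∃ (y : X) (O : Set E2), IsOpen O ∧
    O ⊆ ball 0 3 ∧ O.Nonempty ∧ ContDiffOn ℝ k₀ (T.N y) O) →
    ∀ k, ∃ C : ℝ, ∀ x, CkB k 2 C (T.N x) := by
  obtain ⟨k₁, hk₁⟩ := exists_high_CkB T
  obtain ⟨k₂, hk₂⟩ := smooth_of_campa T
  refine ⟨max k₁ k₂, ?_⟩
  rintro ⟨y, O, hO, hO3, hne, hN⟩
  obtain ⟨V, S, M, hV, hV3, hVne, hVM⟩ := hk₁ (max k₁ k₂) (le_max_left _ _) y O hO hO3 hne hN
  refine hk₂ (max k₁ k₂) (le_max_right _ _) M fun w => ?_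
  have hex : ∀ n : ℕ, ∃ (g : Γ) (z : X), L.em z = L.em y ∧ L.ep z ∈ L.e y '' V ∧ S ≤ L.lv z ∧
      g • z ∈ ball w (1 / ((n : ℝ) + 1)) := fun n =>
    L.dense_leaf y V hV hV3 hVne S (ball w (1 / ((n : ℝ) + 1))) isOpen_ball
      ⟨w, mem_ball_self (by positivity)⟩
  choose g z hz1 hz2 hz3 hz4 using hex
  have hlim : Tendsto (fun n => g n • z n) atTop (𝓝 w) := by
    rw [tendsto_iff_dist_tendsto_zero]
    exact squeeze_zero (fun _ => dist_nonneg) (fun n => (mem_ball.1 (hz4 n)).le)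
      tendsto_one_div_add_atTop_nhds_zero_nat
  refine Campa.limit (F := fun n => T.N (z n)) (fun n => ?_) (fun u hu => ?_)
  · have h1 := hVM (z n) (hz1 n) (hz2 n) (hz3 n)
    exact campa_of_CkB h1.1 h1.2
  · exact tendsto_N T hlim (tendsto_const_nhds (x := u)) (sub23 hu)

end Vale.Agent.P207.N4.H469
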