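import Vale.Agent.P207.N4.Dim
import Vale.Agent.P207.N4.H469.Dich

/-!
# The dichotomy (3.5) (helper469, line N3 of P207)

`dichotomy : Dichotomy T`: either `E^s` is smooth along all unstable leaves, with jointly
continuous derivatives, or it is nowhere `C^{k₀}`.
-/

set_option maxSynthPendingDepth 3

open Set Filter Topology Metric
open scoped ContDiff

noncomputable section

namespace Vale.Agent.P207.N4.H469

open Vale.Agent.P207.N3 Vale.Agent.P207.N3.H469 Vale.Agent.P207.N4.H469 Vale.Agent.P207.N4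

variable [Dim]

open Vale.Agent.P207.N3 Vale.Agent.P207.N3.H545 Vale.Agent.P207.N4.H545

variable {Γ X B : Type} [Group Γ] [MetricSpace X] [ProperSpace X] [MulAction Γ X]
  [IsIsometricSMul Γ X] [TopologicalSpace B] [CompactSpace B] [T2Space B] [MulAction Γ B]
  [ContinuousConstSMul Γ B]

variable {L : Leaf Γ X B}

theorem norm_inv_step (L : Leaf Γ X B) {ρ : ℝ} (hρ : ρ < 3) : ∃ b : ℝ, 0 ≤ b ∧ ∀ y,
    ∀ u ∈ closedBall (0 : E2) ρ, ‖Sx L y L.t1 u‖ ≤ b := by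
  obtain ⟨K, hK, hKΓ⟩ := L.cocompact
  have h23 : closedBall (0 : E2) ρ ⊆ ball 0 3 := closedBall_subset_ball hρ
  have hcomp : IsCompact (K ×ˢ closedBall (0 : E2) ρ) := hK.prod (isCompact_closedBall _ _)
  have hc1 : ContinuousOn (fun p : X × E2 => fderiv ℝ (L.τ (L.φ L.t1 p.1) p.1) p.2)
      (K ×ˢ closedBall (0 : E2) ρ) := by
    have hmap : Continuous fun p : X × E2 => (((L.φ L.t1 p.1, p.1), p.2) : (X × X) × E2) := by
      have h1 : Continuous fun p : X × E2 => L.φ L.t1 p.1 :=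
        L.φ_cont.comp (by fun_prop : Continuous fun p : X × E2 => ((L.t1, p.1) : ℝ × X))
      exact (h1.prodMk continuous_fst).prodMk continuous_snd
    refine (continuousOn_fderiv_tau L).comp hmap.continuousOn ?_
    rintro ⟨y, u⟩ ⟨_, hu⟩
    refine ⟨L.em_φ L.t1 y, ?_⟩
    show u ∈ L.dm (L.φ L.t1 y) y
    rw [dm_step L le_rfl y]
    exact h23 hu
  have hc2 : ContinuousOn (fun p : X × E2 => Ring.inverse (fderiv ℝ (L.τ (L.φ L.t1 p.1) p.1) p.2))
      (K ×ˢ closedBall (0 : E2) ρ) := by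
    rintro ⟨y, u⟩ hp
    have hu : IsUnit (fderiv ℝ (L.τ (L.φ L.t1 y) y) u) := by
      refine isUnit_fderiv_tau L (L.em_φ L.t1 y) ?_
      rw [dm_step L le_rfl y]
      exact h23 hp.2
    obtain ⟨v, hv⟩ := hu
    have h1 : ContinuousAt Ring.inverse (fderiv ℝ (L.τ (L.φ L.t1 y) y) u) := by
      rw [← hv]; exact NormedRing.inverse_continuousAt v
    exact ContinuousAt.comp_continuousWithinAt (g := Ring.inverse)
      (f := fun p : X × E2 => fderiv ℝ (L.τ (L.φ L.t1 p.1) p.1) p.2) h1 (hc1 (y, u) hp)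
  obtain ⟨b, hb⟩ := hcomp.exists_bound_of_continuousOn hc2
  refine ⟨max b 0, le_max_right _ _, ?_⟩
  intro y u hu
  obtain ⟨g, hg⟩ := hKΓ y
  have := hb (g • y, u) ⟨hg, hu⟩
  simp only at this
  rw [fderiv_tau_smul_step L g le_rfl y (h23 hu)] at this
  exact this.trans (le_max_left _ _)

/-- uniform `C^k` bounds of the inverse derivative of the steps, on all smaller discs -/
theorem inv_step_CkB (L : Leaf Γ X B) {ρ : ℝ} (hρ : ρ < 3) (k : ℕ) : ∃ c : ℝ, 0 ≤ c ∧ ∀ y,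
    CkB k ρ c (Sx L y L.t1) := by
  obtain ⟨b, hb0, hb⟩ := norm_inv_step L hρ
  have hcs : 0 ≤ cs L (k + 1) :=
    Finset.sum_nonneg fun j _ => zero_le_one.trans (one_le_cc L j)
  obtain ⟨K, hK0, hK⟩ := exists_inverse_bound.{0} k b (cs L (k + 1)) hb0 hcs
  refine ⟨K, hK0, fun y => ?_⟩
  have h23 : ball (0 : E2) ρ ⊆ ball 0 3 := ball_subset_ball hρ.le
  have hunit : ∀ u ∈ ball (0 : E2) ρ, IsUnit (fderiv ℝ (L.τ (L.φ L.t1 y) y) u) := by
    intro u hu
    refine isUnit_fderiv_tau L (L.em_φ L.t1 y) ?_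
    rw [dm_step L le_rfl y]; exact h23 hu
  have hsm : ∀ u ∈ ball (0 : E2) ρ, ContDiffAt ℝ k (fderiv ℝ (L.τ (L.φ L.t1 y) y)) u := by
    intro u hu
    have h1 : ContDiffAt ℝ ∞ (L.τ (L.φ L.t1 y) y) u :=
      ((tau_step_smooth L le_rfl y) u (h23 hu)).contDiffAt (isOpen_ball.mem_nhds (h23 hu))
    exact h1.fderiv_right (m := k) (by exact_mod_cast le_top)
  refine ⟨?_, ?_⟩
  · intro u hu
    obtain ⟨v, hv⟩ := hunit u hu
    have h1 : ContDiffAt ℝ k Ring.inverse (fderiv ℝ (L.τ (L.φ L.t1 y) y) u) := by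
      rw [← hv]; exact contDiffAt_ringInverse ℝ v
    exact (h1.comp u (hsm u hu)).contDiffWithinAt
  · intro i hi u hu
    refine hK (E2 →L[ℝ] E2) E2 (fderiv ℝ (L.τ (L.φ L.t1 y) y)) u (hsm u hu) (hunit u hu)
      (hb y u (ball_subset_closedBall hu)) ?_ i hi
    intro j h1 hj
    rw [norm_iteratedFDeriv_fderiv]
    exact (norm_iteratedFDeriv_tau_step_le L (by omega) le_rfl y (h23 hu)).trans
      (cc_le_cs L (by omega))

/-- the bounds on the discs of radius `2` give bounds on all smaller discs -/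
theorem N_unif_of (T : Tens L) (h : ∀ k, ∃ C : ℝ, ∀ x, CkB k 2 C (T.N x)) {ρ : ℝ} (hρ : ρ < 3)
    (k : ℕ) : ∃ C : ℝ, ∀ x, CkB k ρ C (T.N x) := by
  have h23 : ball (0 : E2) ρ ⊆ ball 0 3 := ball_subset_ball hρ.le
  obtain ⟨cN, hcN⟩ := h k
  obtain ⟨cS, hcS0, hcS⟩ := inv_step_CkB L hρ k
  obtain ⟨K, hK0, hK⟩ := exists_CkB_comp k (cs L k)
  choose C hC using fun i => T.R_bound i L.t1
  set cR : ℝ := ∑ i ∈ Finset.range (k + 1), |C i| with hcR
  have hcR0 : 0 ≤ cR := Finset.sum_nonneg fun _ _ => abs_nonneg _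
  have hcN0 : 0 ≤ cN := (norm_nonneg _).trans
    ((hcN L.nonempty.some).2 0 (Nat.zero_le _) 0 (mem_ball_self (by norm_num)))
  set cT : ℝ := ‖ContinuousLinearMap.mulLeftRight ℝ (E2 →L[ℝ] E2)‖ * (2 ^ k * (cS * cS)) with hcT
  have hcT0 : 0 ≤ cT := by positivity
  set cI : ℝ := ‖ContinuousLinearMap.id ℝ ((E2 →L[ℝ] E2) →L[ℝ] (E2 →L[ℝ] E2))‖ with hcI
  have hcI0 : 0 ≤ cI := norm_nonneg _
  refine ⟨cI * (2 ^ k * (cT * (K * cN))) + cI * (2 ^ k * (cT * cR)), fun x => ?_⟩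
  set y : X := L.φ (-L.t1) x with hy
  have hxy : x = L.φ L.t1 y := by rw [hy, ← L.φ_add, add_neg_cancel, L.φ_zero]
  rw [hxy]
  have hS : CkB k ρ cS (Sx L y L.t1) := hcS y
  have hST : CkB k ρ cS (fun u => star (Sx L y L.t1 u)) := CkB_star hS
  have hT : CkB k ρ cT (fun u => conjT (Sx L y L.t1 u)) :=
    CkB_bilin (ContinuousLinearMap.mulLeftRight ℝ (E2 →L[ℝ] E2)) hS hST hcS0 hcS0
  have hNτ : CkB k ρ (K * cN) (fun u => T.N y (L.τ (L.φ L.t1 y) y u)) := by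
    refine hK E2 E2 (E2 →L[ℝ] E2) (T.N y) _ ρ 2 cN (hcN y) (fun u hu => ?_) ?_ ?_
    · exact ball_subset_ball (by norm_num)
        (tau_step_mem L le_rfl y (ball_subset_closedBall (h23 hu)))
    · exact ((tau_step_smooth L le_rfl y).mono h23).of_le (by exact_mod_cast le_top)
    · intro i h1 hi u hu
      exact (norm_iteratedFDeriv_tau_step_le L h1 le_rfl y (h23 hu)).trans (cc_le_cs L hi)
  have hR : CkB k ρ cR (T.R (L.φ L.t1 y) y) := by
    refine ⟨?_, fun i hi u hu => ?_⟩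
    · have h1 := T.R_smooth (L.φ L.t1 y) y (L.em_φ L.t1 y)
      have h2 : L.dm (L.φ L.t1 y) y = ball (0 : E2) 3 := dm_step L le_rfl y
      rw [h2] at h1
      exact (h1.mono h23).of_le (by exact_mod_cast le_top)
    · refine (hC i y L.t1 ⟨le_rfl, le_rfl⟩ u (h23 hu)).trans ((le_abs_self _).trans ?_)
      exact Finset.single_le_sum (f := fun i => |C i|) (fun _ _ => abs_nonneg _)
        (Finset.mem_range.mpr (Nat.lt_succ_of_le hi))
  have h1 := CkB_bilin (ContinuousLinearMap.id ℝ ((E2 →L[ℝ] E2) →L[ℝ] (E2 →L[ℝ] E2))) hT hNτ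
    hcT0 (mul_nonneg hK0 hcN0)
  have h2 := CkB_bilin (ContinuousLinearMap.id ℝ ((E2 →L[ℝ] E2) →L[ℝ] (E2 →L[ℝ] E2))) hT hR
    hcT0 hcR0
  exact CkB_congr (CkB_add h1 (CkB_neg h2)) fun u hu => N_step T le_rfl y (h23 hu)

/-- **uniform bounds give the smooth alternative** -/
theorem smoothAlt_of (T : Tens L) (h : ∀ k, ∃ C : ℝ, ∀ x, CkB k 2 C (T.N x)) : SmoothAlt T := by
  have hb : ∀ u ∈ ball (0 : E2) 3, ∃ ρ : ℝ, ρ < 3 ∧ u ∈ ball (0 : E2) ρ := by
    intro u hu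
    rw [mem_ball_zero_iff] at hu
    refine ⟨(‖u‖ + 3) / 2, by linarith, ?_⟩
    rw [mem_ball_zero_iff]
    linarith
  refine ⟨fun y => ?_, fun k => ?_⟩
  · rw [contDiffOn_infty]
    intro k u hu
    obtain ⟨ρ, hρ, huρ⟩ := hb u hu
    obtain ⟨C, hC⟩ := N_unif_of T h hρ k
    exact ((hC y).contDiffAt huρ).contDiffWithinAt
  · rintro ⟨y, u⟩ ⟨-, hu⟩
    have hu : u ∈ ball (0 : E2) 3 := hu
    obtain ⟨ρ, hρ, huρ⟩ := hb u hu
    have h23 : ball (0 : E2) ρ ⊆ ball 0 3 := ball_subset_ball hρ.le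
    obtain ⟨C, hC⟩ := N_unif_of T h hρ (k + 1)
    refine ContinuousAt.continuousWithinAt ?_
    have hlim : ∀ v ∈ ball (0 : E2) ρ, Tendsto (fun z => T.N z v) (𝓝 y) (𝓝 (T.N y v)) := by
      intro v hv
      have h1 : ContinuousAt (fun p : X × E2 => T.N p.1 p.2) (y, v) := by
        refine T.N_cont.continuousAt ?_
        have hopen : IsOpen ((univ : Set X) ×ˢ ball (0 : E2) 3) := isOpen_univ.prod isOpen_ball
        exact hopen.mem_nhds ⟨mem_univ _, h23 hv⟩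
      exact h1.tendsto.comp (tendsto_id.prodMk_nhds tendsto_const_nhds)
    have h1 := (ck_pointwise (l := 𝓝 y) hC hlim).2 k le_rfl
    -- uniform convergence plus continuity of the limit
    have h2 : ContinuousOn (iteratedFDeriv ℝ k (T.N y)) (ball (0 : E2) ρ) := by
      have h3 := ((hC y).1.of_le (by exact_mod_cast Nat.le_succ k : (k : WithTop ℕ∞) ≤ ((k + 1 : ℕ) : WithTop ℕ∞))).continuousOn_iteratedFDerivWithin
        (m := k) le_rfl isOpen_ball.uniqueDiffOn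
      exact h3.congr fun v hv => (iteratedFDerivWithin_of_isOpen k isOpen_ball hv).symm
    have h3 : Tendsto (fun p : X × E2 => iteratedFDeriv ℝ k (T.N p.1) p.2) (𝓝 y ×ˢ 𝓝 u)
        (𝓝 (iteratedFDeriv ℝ k (T.N y) u)) := by
      have h4 := h1.tendstoUniformlyOnFilter
      rw [Metric.tendsto_nhds]
      intro ε hε
      have h5 : ∀ᶠ z in 𝓝 y, ∀ v ∈ ball (0 : E2) ρ,
          dist (iteratedFDeriv ℝ k (T.N y) v) (iteratedFDeriv ℝ k (T.N z) v) < ε / 2 :=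
        Metric.tendstoUniformlyOn_iff.1 h1 (ε / 2) (half_pos hε)
      have h6 : ∀ᶠ v in 𝓝 u, dist (iteratedFDeriv ℝ k (T.N y) v)
          (iteratedFDeriv ℝ k (T.N y) u) < ε / 2 :=
        Metric.tendsto_nhds.1 ((h2.continuousAt (isOpen_ball.mem_nhds huρ)).tendsto) (ε / 2)
          (half_pos hε)
      have h7 : ∀ᶠ v in 𝓝 u, v ∈ ball (0 : E2) ρ := isOpen_ball.mem_nhds huρ
      filter_upwards [h5.prod_mk (h6.and h7)] with p hp
      have h8 := hp.1 p.2 hp.2.2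
      have h9 := hp.2.1
      have h10 := dist_triangle (iteratedFDeriv ℝ k (T.N p.1) p.2)
        (iteratedFDeriv ℝ k (T.N y) p.2) (iteratedFDeriv ℝ k (T.N y) u)
      rw [dist_comm] at h8
      linarith
    rw [← nhds_prod_eq] at h3
    exact h3

/-- **(3.5) the dichotomy.** -/
theorem dichotomy (T : Tens L) : Dichotomy T := by
  obtain ⟨k₀, hk₀⟩ := smooth_of_piece T
  by_cases h : Rough T k₀
  · exact Or.inr ⟨k₀, h⟩
  · refine Or.inl (smoothAlt_of T (hk₀ ?_))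
    unfold Rough at h
    push Not at h
    obtain ⟨y, O, h1, h2, h3, h4⟩ := h
    exact ⟨y, O, h1, h2, h3, h4⟩

/-- the dichotomy with uniform bounds -/
theorem dichotomy' (T : Tens L) :
    (∀ k (ρ : ℝ), ρ < 3 → ∃ C : ℝ, ∀ x, CkB k ρ C (T.N x)) ∨ ∃ k₀, Rough T k₀ := by
  obtain ⟨k₀, hk₀⟩ := smooth_of_piece T
  by_cases h : Rough T k₀
  · exact Or.inr ⟨k₀, h⟩
  · refine Or.inl (fun k ρ hρ => N_unif_of T (hk₀ ?_) hρ k)
    unfold Rough at h
    push Not at h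
    obtain ⟨y, O, h1, h2, h3, h4⟩ := h
    exact ⟨y, O, h1, h2, h3, h4⟩

end Vale.Agent.P207.N4.H469
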